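import Mathlib

/-!
# Maximal shift stable ideals of algebras of functions on histories

Functions `List S → ZMod p` on histories (newest letter first). `sh i f v = f (v.drop i)`.
A minimal set of the shift is represented by a maximal shift stable ideal `m` of an algebra `A`.
-/

set_option autoImplicit false
set_option linter.unusedSectionVars false

namespace Vale.Agent.P329.H585

open Finset

/-- functions on histories -/
abbrev Fn (S : Type) (p : ℕ) := List S → ZMod p

section basic

variable {S : Type} {p : ℕ} [Fact p.Prime]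

/-- shift: forget the `i` newest letters -/
def sh (i : ℕ) (f : Fn S p) : Fn S p := fun v => f (v.drop i)

@[simp] theorem sh_apply (i : ℕ) (f : Fn S p) (v : List S) : sh i f v = f (v.drop i) := rfl

theorem sh_zero (f : Fn S p) : sh 0 f = f := rfl

theorem sh_sh (i j : ℕ) (f : Fn S p) : sh i (sh j f) = sh (i + j) f := by
  funext v
  simp only [sh_apply, List.drop_drop]

/-- indicator of the zero set -/
def zs (f : Fn S p) : Fn S p := fun v => if f v = 0 then 1 else 0

theorem zs_eq (f : Fn S p) : zs f = 1 - f ^ (p - 1) := by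
  funext v
  have hp : p - 1 ≠ 0 := Nat.sub_ne_zero_of_lt (Fact.out : p.Prime).one_lt
  simp only [zs, Pi.sub_apply, Pi.one_apply, Pi.pow_apply]
  by_cases h : f v = 0
  · rw [if_pos h, h, zero_pow hp, sub_zero]
  · rw [if_neg h, ZMod.pow_card_sub_one_eq_one h, sub_self]

/-- indicator of the level set -/
def at' (f : Fn S p) (a : ZMod p) : Fn S p := fun v => if f v = a then 1 else 0

/-- shift closed algebra -/
def TA (A : Subalgebra (ZMod p) (Fn S p)) : Prop := ∀ f ∈ A, sh 1 f ∈ A

theorem TA.sh_mem {A : Subalgebra (ZMod p) (Fn S p)} (hA : TA A) (i : ℕ) {f : Fn S p}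
    (hf : f ∈ A) : sh i f ∈ A := by
  induction i with
  | zero => exact hf
  | succ i ih =>
    have h := hA _ ih
    rw [sh_sh] at h
    rwa [add_comm]

/-- a function of finitely many elements of the algebra is in the algebra -/
theorem fin_mem {A : Subalgebra (ZMod p) (Fn S p)} {ι : Type} [Finite ι] (f : ι → Fn S p)
    (hf : ∀ i, f i ∈ A) (g : (ι → ZMod p) → ZMod p) : (fun v => g fun i => f i v) ∈ A := by
  classical
  have : Fintype ι := Fintype.ofFinite ι
  have h : (fun v => g fun i => f i v) =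
      ∑ x : ι → ZMod p, algebraMap (ZMod p) (Fn S p) (g x) *
        ∏ i, (1 - (f i - algebraMap (ZMod p) (Fn S p) (x i)) ^ (p - 1)) := by
    funext v
    rw [Finset.sum_apply, Finset.sum_eq_single fun i => f i v]
    · rw [Pi.mul_apply, Finset.prod_apply, Finset.prod_eq_one, mul_one]
      · rfl
      · intro i _
        have hz := congrFun (zs_eq (f i - algebraMap (ZMod p) (Fn S p) (f i v))) v
        rw [← hz]
        simp [zs, Pi.algebraMap_apply]
    · intro x _ hx
      obtain ⟨i, hi⟩ := Function.ne_iff.1 hx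
      rw [Pi.mul_apply, Finset.prod_apply, Finset.prod_eq_zero (Finset.mem_univ i), mul_zero]
      have hz := congrFun (zs_eq (f i - algebraMap (ZMod p) (Fn S p) (x i))) v
      rw [← hz]
      have : f i v - x i ≠ 0 := fun h => hi (sub_eq_zero.1 h).symm
      simp [zs, Pi.algebraMap_apply, this]
    · intro h
      exact absurd (Finset.mem_univ _) h
  rw [h]
  refine Subalgebra.sum_mem _ fun x _ => ?_
  refine A.mul_mem (A.algebraMap_mem _) (Subalgebra.prod_mem _ fun i _ => ?_)
  exact A.sub_mem A.one_mem (A.pow_mem (A.sub_mem (hf i) (A.algebraMap_mem _)) _)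

theorem fin1_mem {A : Subalgebra (ZMod p) (Fn S p)} {f : Fn S p} (hf : f ∈ A)
    (g : ZMod p → ZMod p) : (fun v => g (f v)) ∈ A :=
  fin_mem (ι := Unit) (fun _ => f) (fun _ => hf) fun x => g (x ())

theorem fin2_mem {A : Subalgebra (ZMod p) (Fn S p)} {f f' : Fn S p} (hf : f ∈ A) (hf' : f' ∈ A)
    (g : ZMod p → ZMod p → ZMod p) : (fun v => g (f v) (f' v)) ∈ A :=
  fin_mem (ι := Bool) (fun i => if i then f else f') (fun i => by cases i <;> assumption)
    fun x => g (x true) (x false)

theorem zs_mem {A : Subalgebra (ZMod p) (Fn S p)} {f : Fn S p} (hf : f ∈ A) : zs f ∈ A :=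
  fin1_mem hf fun x => if x = 0 then 1 else 0

theorem at_mem {A : Subalgebra (ZMod p) (Fn S p)} {f : Fn S p} (hf : f ∈ A) (a : ZMod p) :
    at' f a ∈ A :=
  fin1_mem hf fun x => if x = a then 1 else 0

/-- no nonzero value of `f` among the `J` newest positions -/
def noV (J : ℕ) (f : Fn S p) : Fn S p := fun v => if ∀ i < J, f (v.drop i) = 0 then 1 else 0

theorem noV_pos {J : ℕ} {f : Fn S p} {v : List S} (h : ∀ i < J, f (v.drop i) = 0) :
    noV J f v = 1 := if_pos h

theorem noV_neg {J : ℕ} {f : Fn S p} {v : List S} (h : ¬ ∀ i < J, f (v.drop i) = 0) :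
    noV J f v = 0 := if_neg h

theorem zs_pos {f : Fn S p} {v : List S} (h : f v = 0) : zs f v = 1 := if_pos h

theorem zs_neg {f : Fn S p} {v : List S} (h : f v ≠ 0) : zs f v = 0 := if_neg h

theorem noV_zero (f : Fn S p) : noV 0 f = 1 := by
  funext v
  exact noV_pos fun i hi => absurd hi (Nat.not_lt_zero i)

theorem noV_succ (J : ℕ) (f : Fn S p) : noV (J + 1) f = noV J f * zs (sh J f) := by
  funext v
  rw [Pi.mul_apply]
  by_cases h : ∀ i < J, f (v.drop i) = 0
  · by_cases h2 : f (v.drop J) = 0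
    · rw [noV_pos h, zs_pos (f := sh J f) h2, noV_pos, one_mul]
      intro i hi
      rcases Nat.lt_succ_iff_lt_or_eq.1 hi with h3 | rfl
      · exact h i h3
      · exact h2
    · rw [zs_neg (f := sh J f) h2, mul_zero, noV_neg fun h3 => h2 (h3 J (Nat.lt_succ_self J))]
  · rw [noV_neg h, zero_mul, noV_neg fun h3 => h fun i hi => h3 i (Nat.lt_succ_of_lt hi)]

theorem noV_succ' (J : ℕ) (f : Fn S p) : noV (J + 1) f = zs f * sh 1 (noV J f) := by
  funext v
  simp only [noV, zs, Pi.mul_apply, sh_apply, List.drop_drop]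
  by_cases h : f v = 0
  · rw [if_pos h, one_mul]
    congr 1
    refine propext ⟨fun h3 i hi => ?_, fun h3 i hi => ?_⟩
    · rw [add_comm]
      exact h3 (i + 1) (Nat.succ_lt_succ hi)
    · cases i with
      | zero => exact h
      | succ i =>
        have := h3 i (Nat.lt_of_succ_lt_succ hi)
        rwa [add_comm] at this
  · rw [if_neg h, zero_mul, if_neg fun h3 => h (h3 0 (Nat.succ_pos J))]

theorem noV_mem {A : Subalgebra (ZMod p) (Fn S p)} (hA : TA A) {f : Fn S p} (hf : f ∈ A)
    (J : ℕ) : noV J f ∈ A := by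
  induction J with
  | zero => rw [noV_zero]; exact A.one_mem
  | succ J ih => rw [noV_succ]; exact A.mul_mem ih (zs_mem (hA.sh_mem _ hf))

/-- proper shift stable ideals -/
structure Idl (A : Subalgebra (ZMod p) (Fn S p)) (m : Set (Fn S p)) : Prop where
  sub : ∀ f ∈ m, f ∈ A
  zero : (0 : Fn S p) ∈ m
  add : ∀ f ∈ m, ∀ g ∈ m, f + g ∈ m
  mul : ∀ a ∈ A, ∀ f ∈ m, a * f ∈ m
  shm : ∀ f ∈ m, sh 1 f ∈ m
  one : (1 : Fn S p) ∉ m

/-- maximal shift stable ideals -/
structure MI (A : Subalgebra (ZMod p) (Fn S p)) (m : Set (Fn S p)) : Prop extends Idl A m where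
  syn : ∀ f ∈ A, f ∉ m → ∃ J, noV J f ∈ m

variable {A A' : Subalgebra (ZMod p) (Fn S p)} {m m' : Set (Fn S p)}

namespace Idl

theorem sh_mem (hm : Idl A m) (i : ℕ) {f : Fn S p} (hf : f ∈ m) : sh i f ∈ m := by
  induction i with
  | zero => exact hf
  | succ i ih =>
    have h := hm.shm _ ih
    rw [sh_sh] at h
    rwa [add_comm]

theorem neg (hm : Idl A m) {f : Fn S p} (hf : f ∈ m) : -f ∈ m := by
  have := hm.mul (-1) (A.neg_mem A.one_mem) f hf
  rwa [neg_one_mul] at this

theorem sub' (hm : Idl A m) {f g : Fn S p} (hf : f ∈ m) (hg : g ∈ m) : f - g ∈ m := by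
  rw [sub_eq_add_neg]
  exact hm.add _ hf _ (hm.neg hg)

theorem sum (hm : Idl A m) {ι : Type} (s : Finset ι) (f : ι → Fn S p) (h : ∀ i ∈ s, f i ∈ m) :
    ∑ i ∈ s, f i ∈ m := by
  classical
  induction s using Finset.induction_on with
  | empty => exact hm.zero
  | insert a s ha ih =>
    rw [sum_insert ha]
    exact hm.add _ (h a (mem_insert_self _ _)) _ (ih fun i hi => h i (mem_insert_of_mem hi))

/-- an element of the algebra which vanishes where finitely many elements of the ideal vanish -/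
theorem van (hm : Idl A m) {ι : Type} (s : Finset ι) (f : ι → Fn S p) (h : ∀ i ∈ s, f i ∈ m)
    {g : Fn S p} (hg : g ∈ A) (hv : ∀ v, (∀ i ∈ s, f i v = 0) → g v = 0) : g ∈ m := by
  classical
  induction s using Finset.induction_on generalizing g with
  | empty =>
    have : g = 0 := funext fun v => hv v fun i hi => absurd hi (notMem_empty i)
    rw [this]
    exact hm.zero
  | insert a s ha ih =>
    have hp : p - 1 = (p - 2) + 1 := by have := (Fact.out : p.Prime).two_le; omega
    have h1 : g * zs (f a) ∈ m := by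
      refine ih (fun i hi => h i (mem_insert_of_mem hi))
        (A.mul_mem hg (zs_mem (hm.sub _ (h a (mem_insert_self _ _))))) fun v hv' => ?_
      simp only [Pi.mul_apply, zs]
      by_cases h2 : f a v = 0
      · rw [hv v fun i hi => ?_, zero_mul]
        rcases mem_insert.1 hi with rfl | h3
        · exact h2
        · exact hv' i h3
      · rw [if_neg h2, mul_zero]
    have h2 : (g * f a ^ (p - 2)) * f a ∈ m :=
      hm.mul _ (A.mul_mem hg (A.pow_mem (hm.sub _ (h a (mem_insert_self _ _))) _)) _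
        (h a (mem_insert_self _ _))
    have h3 : g = g * zs (f a) + (g * f a ^ (p - 2)) * f a := by
      rw [zs_eq, hp]
      ring
    rw [h3]
    exact hm.add _ h1 _ h2

theorem van1 (hm : Idl A m) {f : Fn S p} (h : f ∈ m) {g : Fn S p} (hg : g ∈ A)
    (hv : ∀ v, f v = 0 → g v = 0) : g ∈ m :=
  hm.van {()} (fun _ => f) (fun _ _ => h) hg fun v hv' => hv v (hv' () (mem_singleton_self _))

theorem van2 (hm : Idl A m) {f f' : Fn S p} (h : f ∈ m) (h' : f' ∈ m) {g : Fn S p} (hg : g ∈ A)
    (hv : ∀ v, f v = 0 → f' v = 0 → g v = 0) : g ∈ m :=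
  hm.van univ (fun b : Bool => if b then f else f') (fun b _ => by cases b <;> assumption) hg
    fun v hv' => hv v (hv' true (mem_univ _)) (hv' false (mem_univ _))

/-- finitely many elements and finitely many of their shifts -/
theorem vanJ (hm : Idl A m) {ι : Type} (s : Finset ι) (f : ι → Fn S p) (h : ∀ i ∈ s, f i ∈ m)
    (J : ℕ) {g : Fn S p} (hg : g ∈ A)
    (hv : ∀ v, (∀ i ∈ s, ∀ j < J, f i (v.drop j) = 0) → g v = 0) : g ∈ m :=
  hm.van (s ×ˢ range J) (fun x => sh x.2 (f x.1))
    (fun x hx => hm.sh_mem _ (h _ (mem_product.1 hx).1)) hg fun v hv' => hv v fun i hi j hj =>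
      hv' (i, j) (mem_product.2 ⟨hi, mem_range.2 hj⟩)

end Idl

namespace MI

theorem inter (hm : MI A m) (hm' : MI A' m') (hmm : m ⊆ m') {f : Fn S p} (hf : f ∈ A)
    (hf' : f ∈ m') : f ∈ m := by
  by_contra h
  obtain ⟨J, hJ⟩ := hm.syn f hf h
  refine hm'.one (hm'.toIdl.vanJ univ (fun b : Bool => if b then f else noV J f)
    (fun b _ => ?_) (J + 1) A'.one_mem fun v hv => ?_)
  · cases b
    · exact hmm hJ
    · exact hf'
  · exfalso
    have h1 : noV J f v = 0 := hv false (mem_univ _) 0 (Nat.succ_pos _)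
    have h2 : ∀ i < J, f (v.drop i) = 0 := fun i hi => hv true (mem_univ _) i (by omega)
    rw [noV, if_pos h2] at h1
    exact one_ne_zero h1

theorem notMem_sh (hA : TA A) (hm : MI A m) {f : Fn S p} (hf : f ∈ A) (h : f ∉ m) (k : ℕ) :
    sh k f ∉ m := by
  intro h1
  obtain ⟨J, hJ⟩ := hm.syn f hf h
  refine hm.one (hm.toIdl.vanJ univ (fun b : Bool => if b then sh k f else noV J f)
    (fun b _ => ?_) (J + k + 1) A.one_mem fun v hv => ?_)
  · cases b
    · exact hJ
    · exact h1
  · exfalso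
    have h2 : noV J f (v.drop k) = 0 := hv false (mem_univ _) k (by omega)
    have h3 : ∀ i < J, f ((v.drop k).drop i) = 0 := fun i hi => by
      have := hv true (mem_univ _) i (by omega)
      simp only [if_true, sh_apply, List.drop_drop] at this
      rw [List.drop_drop, add_comm]
      exact this
    rw [noV, if_pos h3] at h2
    exact one_ne_zero h2

end MI

/-- Existence of maximal shift stable ideals. -/
theorem exists_MI (hA : TA A) {K : Set (Fn S p)} (hK : Idl A K) : ∃ m, MI A m ∧ K ⊆ m := by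
  obtain ⟨m, hKm, hmax⟩ := zorn_subset_nonempty {J | Idl A J} (fun c hc hch hne => by
    refine ⟨⋃₀ c, ?_, fun s hs => Set.subset_sUnion_of_mem hs⟩
    obtain ⟨s0, hs0⟩ := hne
    refine ⟨?_, ⟨s0, hs0, (hc hs0).zero⟩, ?_, ?_, ?_, ?_⟩
    · rintro f ⟨s, hs, hf⟩
      exact (hc hs).sub f hf
    · rintro f ⟨s, hs, hf⟩ g ⟨t, ht, hg⟩
      rcases hch.total hs ht with h | h
      · exact ⟨t, ht, (hc ht).add f (h hf) g hg⟩
      · exact ⟨s, hs, (hc hs).add f hf g (h hg)⟩
    · rintro a ha f ⟨s, hs, hf⟩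
      exact ⟨s, hs, (hc hs).mul a ha f hf⟩
    · rintro f ⟨s, hs, hf⟩
      exact ⟨s, hs, (hc hs).shm f hf⟩
    · rintro ⟨s, hs, hf⟩
      exact (hc hs).one hf) K hK
  have hm : Idl A m := hmax.prop
  refine ⟨m, ⟨hm, fun f hf hfm => ?_⟩, hKm⟩
  by_contra hcon
  push Not at hcon
  have hJ : Idl A {g | g ∈ A ∧ ∃ N, g * noV N f ∈ m} := by
    refine ⟨fun g hg => hg.1, ⟨A.zero_mem, 0, by rw [zero_mul]; exact hm.zero⟩, ?_, ?_, ?_, ?_⟩
    · rintro g ⟨hg, N, hN⟩ g' ⟨hg', N', hN'⟩
      refine ⟨A.add_mem hg hg', N + N', hm.van2 hN hN'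
        (A.mul_mem (A.add_mem hg hg') (noV_mem hA hf _)) fun v h1 h2 => ?_⟩
      simp only [Pi.mul_apply, Pi.add_apply] at h1 h2 ⊢
      by_cases h3 : ∀ i < N + N', f (v.drop i) = 0
      · rw [noV, if_pos fun i hi => h3 i (by omega), mul_one] at h1 h2
        rw [h1, h2, add_zero, zero_mul]
      · rw [noV, if_neg h3, mul_zero]
    · rintro a ha g ⟨hg, N, hN⟩
      refine ⟨A.mul_mem ha hg, N, ?_⟩
      rw [mul_assoc]
      exact hm.mul a ha _ hN
    · rintro g ⟨hg, N, hN⟩
      refine ⟨hA g hg, N + 1, ?_⟩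
      have h1 : sh 1 g * noV (N + 1) f = zs f * sh 1 (g * noV N f) := by
        rw [noV_succ']
        funext v
        simp only [Pi.mul_apply, sh_apply]
        ring
      rw [h1]
      exact hm.mul _ (zs_mem hf) _ (hm.shm _ hN)
    · rintro ⟨-, N, hN⟩
      rw [one_mul] at hN
      exact hcon N hN
  have hsub : m ⊆ {g | g ∈ A ∧ ∃ N, g * noV N f ∈ m} := fun g hg =>
    ⟨hm.sub g hg, 0, by rw [noV_zero, mul_one]; exact hg⟩
  have heq := hmax.le_of_ge hJ hsub
  refine hfm (heq ⟨hf, 1, ?_⟩)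
  have : f * noV 1 f = 0 := by
    funext v
    simp only [Pi.mul_apply, Pi.zero_apply, noV]
    by_cases h : f v = 0
    · rw [h, zero_mul]
    · rw [if_neg fun h3 => h (h3 0 Nat.one_pos), mul_zero]
  rw [this]
  exact hm.zero

end basic

end Vale.Agent.P329.H585
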