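import Vale.Agent.P329.H585.Idl

/-!
# Skew products

`X - sh 1 X = h`, `h` not a coboundary modulo `m`: the powers `1, X, ..., X ^ (p-1)` are
independent modulo `m'`.
-/

set_option autoImplicit false
set_option linter.unusedSectionVars false

namespace Vale.Agent.P329.H585

open Finset Polynomial

section poly

variable {R : Type} [CommRing R]

theorem coeff_taylor_top (q : R[X]) (d : ℕ) (hq : q.natDegree ≤ d) (r : R) :
    (taylor r q).coeff d = q.coeff d := by
  rw [taylor_coeff]
  have h0 : (hasseDeriv d q).natDegree ≤ 0 := by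
    have := natDegree_hasseDeriv_le q d
    omega
  rw [eq_C_of_natDegree_le_zero h0, eval_C, hasseDeriv_coeff]
  simp

theorem coeff_taylor_sub (q : R[X]) (d : ℕ) (hq : q.natDegree ≤ d + 1) (r : R) :
    (taylor r q).coeff d = q.coeff d + ((d : R) + 1) * r * q.coeff (d + 1) := by
  rw [taylor_coeff]
  have h0 : (hasseDeriv d q).natDegree < 2 := by
    have := natDegree_hasseDeriv_le q d
    omega
  rw [eval_eq_sum_range' h0, sum_range_succ, sum_range_one, hasseDeriv_coeff, hasseDeriv_coeff]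
  have h1 : (1 + d).choose d = d + 1 := by
    rw [add_comm, Nat.choose_succ_self_right]
  rw [h1, zero_add, Nat.choose_self, add_comm 1 d]
  push_cast
  ring

end poly

variable {S : Type} {p : ℕ} [Fact p.Prime]
variable {A A' : Subalgebra (ZMod p) (Fn S p)} {m m' : Set (Fn S p)}

/-- the shift on the algebra -/
def tauA (hA : TA A) : A →+* A where
  toFun a := ⟨sh 1 a, hA a a.2⟩
  map_one' := rfl
  map_mul' _ _ := rfl
  map_zero' := rfl
  map_add' _ _ := rfl

theorem sh_aeval (hA : TA A) (Y : Fn S p) (q : A[X]) :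
    sh 1 (aeval Y q) = aeval (sh 1 Y) (q.map (tauA hA)) := by
  induction q using Polynomial.induction_on' with
  | add a b ha hb =>
    rw [map_add, Polynomial.map_add, map_add, ← ha, ← hb]
    rfl
  | monomial n a =>
    rw [aeval_monomial, Polynomial.map_monomial, aeval_monomial]
    funext v
    rfl

/-- the shift on polynomials in `Y`, if `sh 1 Y = Y - h` -/
noncomputable def TT (hA : TA A) (h : A) (q : A[X]) : A[X] := taylor (-h) (q.map (tauA hA))

theorem sh_aeval' (hA : TA A) {Y : Fn S p} {h : A} (hY : Y - sh 1 Y = h) (q : A[X]) :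
    sh 1 (aeval Y q) = aeval Y (TT hA h q) := by
  rw [sh_aeval hA, TT, taylor_apply, aeval_comp]
  congr 2
  rw [map_add, aeval_X, aeval_C, map_neg]
  have h1 : algebraMap A (Fn S p) h = (h : Fn S p) := rfl
  rw [h1, ← hY]
  ring

theorem aeval_sub' (Y : Fn S p) (a b : A[X]) : aeval Y (a - b) = aeval Y a - aeval Y b := by
  have h : a = (a - b) + b := (sub_add_cancel a b).symm
  have h2 : aeval Y a = aeval Y (a - b) + aeval Y b := by
    rw [← map_add]
    exact congrArg _ h
  rw [h2, add_sub_cancel_right]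

theorem TT_deg (hA : TA A) (h : A) (q : A[X]) (d : ℕ) (hq : q.natDegree ≤ d) :
    (TT hA h q).natDegree ≤ d := by
  rw [TT, natDegree_taylor]
  exact le_trans natDegree_map_le hq

theorem TT_top (hA : TA A) (h : A) (q : A[X]) (d : ℕ) (hq : q.natDegree ≤ d) :
    (TT hA h q).coeff d = tauA hA (q.coeff d) := by
  rw [TT, coeff_taylor_top _ _ (le_trans natDegree_map_le hq), coeff_map]

theorem TT_sub (hA : TA A) (h : A) (q : A[X]) (d : ℕ) (hq : q.natDegree ≤ d + 1) :
    (TT hA h q).coeff d = tauA hA (q.coeff d) - ((d : A) + 1) * h * tauA hA (q.coeff (d + 1)) := by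
  rw [TT, coeff_taylor_sub _ _ (le_trans natDegree_map_le hq), coeff_map, coeff_map]
  ring

/-- `h` is a coboundary modulo `m` -/
def Cob (A : Subalgebra (ZMod p) (Fn S p)) (m : Set (Fn S p)) (h : Fn S p) : Prop :=
  ∃ ψ ∈ A, h - (ψ - sh 1 ψ) ∈ m

theorem aeval_mem (hAA : A ≤ A') {Y : Fn S p} (hY : Y ∈ A') (q : A[X]) : aeval Y q ∈ A' := by
  induction q using Polynomial.induction_on' with
  | add a b ha hb => rw [map_add]; exact A'.add_mem ha hb
  | monomial n a =>
    rw [aeval_monomial]
    exact A'.mul_mem (hAA a.2) (A'.pow_mem hY _)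

/-- **Lemma N**: independence of the powers. -/
theorem indep (hA : TA A) (hA' : TA A') (hAA : A ≤ A') (hm : MI A m) (hm' : MI A' m')
    (hmm : m ⊆ m') {h Y : Fn S p} (hh : h ∈ A) (hY : Y ∈ A') (hYh : Y - sh 1 Y = h)
    (hnc : ¬ Cob A m h) :
    ∀ d, d < p → ∀ q : A[X], q.natDegree ≤ d → aeval Y q ∈ m' → ∀ i, (q.coeff i : Fn S p) ∈ m := by
  intro d
  induction d with
  | zero =>
    intro _ q hq hqm i
    have h1 : q = C (q.coeff 0) := eq_C_of_natDegree_le_zero hq
    have h2 : (q.coeff 0 : Fn S p) ∈ m := by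
      refine hm.inter hm' hmm (q.coeff 0).2 ?_
      rw [h1, aeval_C] at hqm
      exact hqm
    cases i with
    | zero => exact h2
    | succ i =>
      rw [coeff_eq_zero_of_natDegree_lt (by omega)]
      exact hm.zero
  | succ d ih =>
    intro hd q hq hqm
    have ih := ih (by omega)
    by_cases hb : (q.coeff (d + 1) : Fn S p) ∈ m
    · -- remove the leading term
      have h1 : (q - monomial (d + 1) (q.coeff (d + 1))).natDegree ≤ d := by
        rw [natDegree_le_iff_coeff_eq_zero]
        intro N hN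
        rw [coeff_sub, coeff_monomial]
        split_ifs with h2
        · rw [h2, sub_self]
        · rw [coeff_eq_zero_of_natDegree_lt (by omega), sub_zero]
      have h2 : aeval Y (q - monomial (d + 1) (q.coeff (d + 1))) ∈ m' := by
        rw [aeval_sub', aeval_monomial]
        refine hm'.toIdl.sub' hqm ?_
        rw [mul_comm]
        exact hm'.mul _ (A'.pow_mem hY _) _ (hmm hb)
      intro i
      by_cases hi : i = d + 1
      · rw [hi]; exact hb
      · have h3 := ih _ h1 h2 i
        rwa [coeff_sub, coeff_monomial, if_neg (fun h => hi h.symm), sub_zero] at h3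
    · exfalso
      -- the set of leading coefficients
      let L : Set (Fn S p) := {b | ∃ q : A[X], q.natDegree ≤ d + 1 ∧
        (q.coeff (d + 1) : Fn S p) = b ∧ aeval Y q ∈ m'}
      have Ladd : ∀ f ∈ L, ∀ g ∈ L, f + g ∈ L := by
        rintro _ ⟨q1, h1, rfl, h3⟩ _ ⟨q2, g1, rfl, g3⟩
        refine ⟨q1 + q2, natDegree_add_le_of_degree_le h1 g1, by rw [coeff_add]; rfl, ?_⟩
        rw [map_add]
        exact hm'.add _ h3 _ g3
      have Lmul : ∀ a ∈ A, ∀ f ∈ L, a * f ∈ L := by
        rintro a ha _ ⟨q1, h1, rfl, h3⟩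
        refine ⟨C ⟨a, ha⟩ * q1, le_trans (natDegree_C_mul_le _ _) h1, by rw [coeff_C_mul]; rfl, ?_⟩
        rw [map_mul, aeval_C]
        exact hm'.mul _ (hAA ha) _ h3
      have Lsh : ∀ f ∈ L, sh 1 f ∈ L := by
        rintro _ ⟨q1, h1, rfl, h3⟩
        refine ⟨TT hA ⟨h, hh⟩ q1, TT_deg hA _ _ _ h1, by rw [TT_top hA _ _ _ h1]; rfl, ?_⟩
        rw [← sh_aeval' hA (h := ⟨h, hh⟩) hYh]
        exact hm'.shm _ h3
      have Lm : ∀ f ∈ m, f ∈ L := by
        intro f hf
        refine ⟨monomial (d + 1) ⟨f, hm.sub f hf⟩, natDegree_monomial_le _,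
          by rw [coeff_monomial, if_pos rfl], ?_⟩
        rw [aeval_monomial, mul_comm]
        exact hm'.mul _ (A'.pow_mem hY _) _ (hmm hf)
      set b : Fn S p := (q.coeff (d + 1) : Fn S p) with hbdef
      have hbL : ∀ i, sh i b ∈ L := by
        intro i
        induction i with
        | zero => exact ⟨q, hq, rfl, hqm⟩
        | succ i ih2 =>
          have := Lsh _ ih2
          rw [sh_sh] at this
          rwa [add_comm]
      have hpow : p - 1 = (p - 2) + 1 := by have := (Fact.out : p.Prime).two_le; omega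
      have h1L : ∀ J, 1 - noV J b ∈ L := by
        intro J
        induction J with
        | zero =>
          rw [noV_zero, sub_self]
          exact Lm _ hm.zero
        | succ J ih2 =>
          have h4 : 1 - noV (J + 1) b =
              (1 - noV J b) + (noV J b * (sh J b) ^ (p - 2)) * sh J b := by
            rw [noV_succ, zs_eq, hpow]
            ring
          rw [h4]
          exact Ladd _ ih2 _ (Lmul _ (A.mul_mem (noV_mem hA (q.coeff (d + 1)).2 _)
            (A.pow_mem (hA.sh_mem _ (q.coeff (d + 1)).2) _)) _ (hbL J))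
      obtain ⟨J, hJ⟩ := hm.syn b (q.coeff (d + 1)).2 hb
      have h5 : (1 : Fn S p) ∈ L := by
        have := Ladd _ (h1L J) _ (Lm _ hJ)
        rwa [sub_add_cancel] at this
      obtain ⟨q1, h1, h2, h3⟩ := h5
      have h2' : q1.coeff (d + 1) = 1 := Subtype.ext h2
      have h6 : (TT hA ⟨h, hh⟩ q1 - q1).natDegree ≤ d := by
        rw [natDegree_le_iff_coeff_eq_zero]
        intro N hN
        rcases Nat.lt_or_ge (d + 1) N with h7 | h7
        · rw [coeff_sub, coeff_eq_zero_of_natDegree_lt (lt_of_le_of_lt (TT_deg hA _ _ _ h1) h7),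
            coeff_eq_zero_of_natDegree_lt (lt_of_le_of_lt h1 h7), sub_zero]
        · have h8 : N = d + 1 := by omega
          rw [h8, coeff_sub, TT_top hA _ _ _ h1, h2', map_one, sub_self]
      have h7 : aeval Y (TT hA ⟨h, hh⟩ q1 - q1) ∈ m' := by
        rw [aeval_sub', ← sh_aeval' hA (h := ⟨h, hh⟩) hYh]
        exact hm'.toIdl.sub' (hm'.shm _ h3) h3
      have h8 := ih _ h6 h7 d
      rw [coeff_sub, TT_sub hA _ _ _ h1, h2', map_one, mul_one] at h8
      have hne : ((d : ZMod p) + 1) ≠ 0 := by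
        have : ((d + 1 : ℕ) : ZMod p) ≠ 0 := by
          rw [Ne, ZMod.natCast_eq_zero_iff]
          intro hdvd
          have := Nat.le_of_dvd (Nat.succ_pos d) hdvd
          omega
        simpa using this
      apply hnc
      set c : A := q1.coeff d with hc
      set e : Fn S p := algebraMap (ZMod p) (Fn S p) (-((d : ZMod p) + 1)⁻¹) with he
      have heA : e ∈ A := A.algebraMap_mem _
      refine ⟨e * (c : Fn S p), A.mul_mem heA c.2, ?_⟩
      have h9 : h - (e * (c : Fn S p) - sh 1 (e * (c : Fn S p))) =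
          e * ((tauA hA c - ((d : A) + 1) * (⟨h, hh⟩ : A) - c : A) : Fn S p) := by
        funext v
        have h11 : ((tauA hA c - ((d : A) + 1) * (⟨h, hh⟩ : A) - c : A) : Fn S p) =
            sh 1 (c : Fn S p) - ((d : Fn S p) + 1) * h - (c : Fn S p) := by
          push_cast
          rfl
        have h10 : ((tauA hA c - ((d : A) + 1) * (⟨h, hh⟩ : A) - c : A) : Fn S p) v =
            (c : Fn S p) (v.drop 1) - ((d : ZMod p) + 1) * h v - (c : Fn S p) v := by
          rw [h11]
          rfl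
        have h12 : ∀ u, e u = -((d : ZMod p) + 1)⁻¹ := fun u => rfl
        simp only [Pi.sub_apply, Pi.mul_apply, sh_apply, h10, h12]
        field_simp
        ring
      rw [h9]
      exact hm.mul _ heA _ h8

/-- the level polynomial -/
noncomputable def lev (A : Subalgebra (ZMod p) (Fn S p)) (ρ : ZMod p) : A[X] :=
  1 - (X - C (algebraMap (ZMod p) A ρ)) ^ (p - 1)

theorem aeval_lev (Y : Fn S p) (ρ : ZMod p) : aeval Y (lev A ρ) = at' Y ρ := by
  rw [lev, aeval_sub', map_one, map_pow, aeval_sub', aeval_X, aeval_C]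
  have h1 : algebraMap A (Fn S p) (algebraMap (ZMod p) A ρ) = fun _ => ρ := rfl
  rw [h1]
  have h2 := zs_eq (Y - fun _ => ρ)
  rw [← h2]
  funext v
  by_cases h3 : Y v = ρ
  · rw [zs_pos (by rw [Pi.sub_apply, h3, sub_self])]
    exact (if_pos h3).symm
  · rw [zs_neg (by rw [Pi.sub_apply]; exact sub_ne_zero.2 h3)]
    exact (if_neg h3).symm

theorem lev_deg (ρ : ZMod p) : (lev A ρ).natDegree ≤ p - 1 := by
  rw [lev]
  refine le_trans (natDegree_sub_le _ _) (max_le ?_ ?_)
  · rw [natDegree_one]; exact Nat.zero_le _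
  · refine le_trans natDegree_pow_le ?_
    have := natDegree_X_sub_C_le (algebraMap (ZMod p) A ρ)
    calc (p - 1) * (X - C (algebraMap (ZMod p) A ρ)).natDegree ≤ (p - 1) * 1 :=
          Nat.mul_le_mul_left _ this
      _ = p - 1 := mul_one _

theorem lev_top [Nontrivial A] (ρ : ZMod p) : (lev A ρ).coeff (p - 1) = -1 := by
  have hp : p - 1 ≠ 0 := Nat.sub_ne_zero_of_lt (Fact.out : p.Prime).one_lt
  have h1 : ((X - C (algebraMap (ZMod p) A ρ)) ^ (p - 1)).coeff (p - 1) = 1 := by
    have hmon : ((X - C (algebraMap (ZMod p) A ρ)) ^ (p - 1)).Monic :=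
      (monic_X_sub_C _).pow _
    have hdeg : ((X - C (algebraMap (ZMod p) A ρ)) ^ (p - 1)).natDegree = p - 1 := by
      rw [(monic_X_sub_C _).natDegree_pow, natDegree_X_sub_C, mul_one]
    have := hmon.coeff_natDegree
    rwa [hdeg] at this
  rw [lev, coeff_sub, h1, coeff_one, if_neg hp, zero_sub]

section step

variable (hA : TA A) (hA' : TA A') (hAA : A ≤ A') (hm : MI A m) (hm' : MI A' m')
  (hmm : m ⊆ m') {h Y : Fn S p} (hh : h ∈ A) (hY : Y ∈ A') (hYh : Y - sh 1 Y = h)
  (hnc : ¬ Cob A m h)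

include hA hA' hAA hm hm' hmm hh hY hYh hnc

/-- `h [Y = ρ]` is not in the ideal -/
theorem nc_notMem (ρ : ZMod p) : h * at' Y ρ ∉ m' := by
  intro hcon
  have hp1 : p - 1 < p := Nat.sub_lt (Fact.out : p.Prime).pos one_pos
  have hnt : Nontrivial A := ⟨⟨0, 1, fun h => hm.one (by
    have h2 : (1 : Fn S p) = 0 := congrArg Subtype.val h.symm
    rw [h2]; exact hm.zero)⟩⟩
  have h1 := indep hA hA' hAA hm hm' hmm hh hY hYh hnc (p - 1) hp1
    (C ⟨h, hh⟩ * lev A ρ) (le_trans (natDegree_C_mul_le _ _) (lev_deg ρ)) (by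
      rw [map_mul, aeval_C, aeval_lev]
      exact hcon) (p - 1)
  rw [coeff_C_mul, lev_top] at h1
  have h1' : h * (-1 : Fn S p) ∈ m := h1
  apply hnc
  refine ⟨0, A.zero_mem, ?_⟩
  have h2 := hm.toIdl.neg h1'
  have h3 : h - (0 - sh 1 (0 : Fn S p)) = -(h * (-1 : Fn S p)) := by
    funext v
    simp
  rw [h3]
  exact h2

/-- non-coboundaries are inherited -/
theorem nc_step (hGen : ∀ ψ ∈ A', ∃ q : A[X], q.natDegree ≤ p - 1 ∧ ψ - aeval Y q ∈ m')
    (ρ : ZMod p) {u : Fn S p} (hu : u ∈ A) :
    ¬ Cob A' m' (h * at' Y ρ + u * (sh 1 (at' Y ρ) - at' Y ρ)) := by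
  rintro ⟨ψ, hψ, hcon⟩
  have hp1 : p - 1 < p := Nat.sub_lt (Fact.out : p.Prime).pos one_pos
  have hnt : Nontrivial A := ⟨⟨0, 1, fun h => hm.one (by
    have h2 : (1 : Fn S p) = 0 := congrArg Subtype.val h.symm
    rw [h2]; exact hm.zero)⟩⟩
  obtain ⟨q, hq, hqψ⟩ := hGen ψ hψ
  set h' : A := ⟨h, hh⟩ with hh'
  set u' : A := ⟨u, hu⟩ with hu'
  have hYh' : Y - sh 1 Y = (h' : Fn S p) := hYh
  set Q : A[X] := C h' * lev A ρ + C u' * (TT hA h' (lev A ρ) - lev A ρ) - (q - TT hA h' q)
    with hQ
  have hQd : Q.natDegree ≤ p - 1 := by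
    refine le_trans (natDegree_sub_le _ _) (max_le ?_ ?_)
    · refine natDegree_add_le_of_degree_le (le_trans (natDegree_C_mul_le _ _) (lev_deg ρ)) ?_
      refine le_trans (natDegree_C_mul_le _ _) (le_trans (natDegree_sub_le _ _) (max_le ?_ ?_))
      · exact TT_deg hA _ _ _ (lev_deg ρ)
      · exact lev_deg ρ
    · exact le_trans (natDegree_sub_le _ _) (max_le hq (TT_deg hA _ _ _ hq))
  have hQm : aeval Y Q ∈ m' := by
    have e1 : aeval Y Q = h * at' Y ρ + u * (sh 1 (at' Y ρ) - at' Y ρ) -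
        (aeval Y q - sh 1 (aeval Y q)) := by
      rw [hQ, aeval_sub', map_add, map_mul, map_mul, aeval_C, aeval_C, aeval_sub', aeval_sub',
        ← sh_aeval' hA hYh', ← sh_aeval' hA hYh', aeval_lev]
      rfl
    have e2 : aeval Y Q = (h * at' Y ρ + u * (sh 1 (at' Y ρ) - at' Y ρ) - (ψ - sh 1 ψ)) +
        ((ψ - aeval Y q) - sh 1 (ψ - aeval Y q)) := by
      rw [e1]
      funext v
      simp only [Pi.add_apply, Pi.sub_apply, sh_apply]
      ring
    rw [e2]
    exact hm'.add _ hcon _ (hm'.toIdl.sub' hqψ (hm'.shm _ hqψ))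
  have h1 := indep hA hA' hAA hm hm' hmm hh hY hYh hnc (p - 1) hp1 Q hQd hQm (p - 1)
  have h2 : Q.coeff (p - 1) = h' * (-1) + u' * (tauA hA (-1) - -1) -
      (q.coeff (p - 1) - tauA hA (q.coeff (p - 1))) := by
    rw [hQ, coeff_sub, coeff_add, coeff_C_mul, coeff_C_mul, coeff_sub, coeff_sub,
      TT_top hA _ _ _ (lev_deg ρ), TT_top hA _ _ _ hq, lev_top]
  have h2' : (Q.coeff (p - 1) : Fn S p) =
      -h - ((q.coeff (p - 1) : Fn S p) - sh 1 (q.coeff (p - 1) : Fn S p)) := by
    rw [h2]
    funext v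
    have h4 : ((h' * (-1) + u' * (tauA hA (-1) - -1) -
      (q.coeff (p - 1) - tauA hA (q.coeff (p - 1))) : A) : Fn S p) v =
      h v * (-1) + u v * ((-1) - (-1)) -
      ((q.coeff (p - 1) : Fn S p) v - (q.coeff (p - 1) : Fn S p) (v.drop 1)) := rfl
    rw [h4]
    simp only [Pi.sub_apply, Pi.neg_apply, sh_apply]
    ring
  rw [h2'] at h1
  apply hnc
  refine ⟨-(q.coeff (p - 1) : Fn S p), A.neg_mem (q.coeff (p - 1)).2, ?_⟩
  have h3 : h - (-(q.coeff (p - 1) : Fn S p) - sh 1 (-(q.coeff (p - 1) : Fn S p))) =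
      -(-h - ((q.coeff (p - 1) : Fn S p) - sh 1 (q.coeff (p - 1) : Fn S p))) := by
    funext v
    simp only [Pi.sub_apply, Pi.neg_apply, sh_apply]
    ring
  rw [h3]
  exact hm.toIdl.neg h1

end step

/-- clocks visit every state -/
theorem clock_notMem (hA : TA A) (hA' : TA A') (hAA : A ≤ A') (hm : MI A m) (hm' : MI A' m')
    (hmm : m ⊆ m') {w Y : Fn S p} (hw : w ∈ A) (hw1 : w ∉ m) (hw2 : w * w - w ∈ m)
    (hY : Y ∈ A') (hYw : Y - sh 1 Y = w) (ρ : ZMod p) : w * at' Y ρ ∉ m' := by
  have hat : ∀ v (a : ZMod p), at' Y a v = 0 ↔ Y v ≠ a := by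
    intro v a
    by_cases h : Y v = a
    · simp only [h, ne_eq, not_true_eq_false, iff_false]
      have : at' Y a v = 1 := if_pos h
      rw [this]; exact one_ne_zero
    · exact ⟨fun _ => h, fun _ => if_neg h⟩
  have hat1 : ∀ v (a : ZMod p), Y v = a → at' Y a v = 1 := fun v a h => if_pos h
  have hstep : ∀ v, Y v = Y (v.drop 1) + w v := by
    intro v
    have := congrFun hYw v
    simp only [Pi.sub_apply, sh_apply] at this
    rw [← this]; ring
  have key : ∀ ρ, w * at' Y ρ ∈ m' → at' Y (ρ - 1) ∈ m' := by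
    intro ρ hρ
    by_contra he
    obtain ⟨J, hJ⟩ := hm'.syn _ (at_mem hY _) he
    have h1 : 1 - at' Y (ρ - 1) ∈ m' := by
      refine hm'.toIdl.vanJ (univ : Finset (Fin 3))
        (fun i => if i = 0 then w * at' Y ρ else if i = 1 then w * w - w else
          noV J (at' Y (ρ - 1))) (fun i _ => ?_) (J + 1)
        (A'.sub_mem A'.one_mem (at_mem hY _)) fun v hv => ?_
      · fin_cases i
        · exact hρ
        · exact hmm hw2
        · exact hJ
      · have v1 : ∀ j < J + 1, (w * at' Y ρ) (v.drop j) = 0 := fun j hj => hv 0 (mem_univ _) j hj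
        have v2 : ∀ j < J + 1, (w * w - w) (v.drop j) = 0 := fun j hj => hv 1 (mem_univ _) j hj
        have v3 : noV J (at' Y (ρ - 1)) v = 0 := hv 2 (mem_univ _) 0 (Nat.succ_pos _)
        have v4 : ∃ i < J, Y (v.drop i) = ρ - 1 := by
          by_contra hno
          push Not at hno
          rw [noV_pos fun i hi => (hat _ _).2 (hno i hi)] at v3
          exact one_ne_zero v3
        obtain ⟨i, hi, hYi⟩ := v4
        have v5 : ∀ j ≤ i, Y (v.drop (i - j)) = ρ - 1 := by
          intro j
          induction j with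
          | zero => intro _; exact hYi
          | succ j ih =>
            intro hj
            have h5 := ih (by omega)
            have h6 := hstep (v.drop (i - (j + 1)))
            rw [List.drop_drop, show i - (j + 1) + 1 = i - j by omega, h5] at h6
            have h7 := v2 (i - (j + 1)) (by omega)
            simp only [Pi.sub_apply, Pi.mul_apply] at h7
            have h8 : w (v.drop (i - (j + 1))) * (w (v.drop (i - (j + 1))) - 1) = 0 := by
              rw [← h7]; ring
            rcases mul_eq_zero.1 h8 with h9 | h9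
            · rw [h6, h9, add_zero]
            · exfalso
              have h10 : w (v.drop (i - (j + 1))) = 1 := sub_eq_zero.1 h9
              rw [h10, sub_add_cancel] at h6
              have h11 := v1 (i - (j + 1)) (by omega)
              rw [Pi.mul_apply, h10, one_mul, hat] at h11
              exact h11 h6
        have v6 := v5 i le_rfl
        rw [Nat.sub_self, List.drop_zero] at v6
        rw [Pi.sub_apply, hat1 _ _ v6, Pi.one_apply, sub_self]
    have h2 : w ∈ m' := by
      refine hm'.toIdl.vanJ {()} (fun _ => 1 - at' Y (ρ - 1)) (fun _ _ => h1) 2 (hAA hw)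
        fun v hv => ?_
      have e : ∀ u, (1 - at' Y (ρ - 1)) u = 0 → Y u = ρ - 1 := by
        intro u hu
        by_contra hne
        rw [Pi.sub_apply, (hat _ _).2 hne, Pi.one_apply, sub_zero] at hu
        exact one_ne_zero hu
      have e0 := e _ (hv () (mem_singleton_self _) 0 (by norm_num))
      have e1 := e _ (hv () (mem_singleton_self _) 1 (by norm_num))
      have h6 := hstep v
      rw [List.drop_zero] at e0
      rw [e0, e1] at h6
      have h7 : ρ - 1 + 0 = ρ - 1 + w v := by rw [add_zero]; exact h6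
      exact (add_left_cancel h7).symm
    exact hw1 (hm.inter hm' hmm hw h2)
  intro hρ
  have hall : ∀ n : ℕ, w * at' Y (ρ - n) ∈ m' ∧ at' Y (ρ - n - 1) ∈ m' := by
    intro n
    induction n with
    | zero =>
      simp only [Nat.cast_zero, sub_zero]
      exact ⟨hρ, key ρ hρ⟩
    | succ n ih =>
      have h1 : w * at' Y (ρ - (n + 1 : ℕ)) ∈ m' := by
        have h2 : ρ - ((n + 1 : ℕ) : ZMod p) = ρ - n - 1 := by push_cast; ring
        rw [h2]
        exact hm'.mul _ (hAA hw) _ ih.2
      exact ⟨h1, key _ h1⟩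
  refine hm'.one (hm'.toIdl.van univ (fun a : ZMod p => at' Y a) (fun a _ => ?_) A'.one_mem
    fun v hv => ?_)
  · have h1 := (hall (ρ - 1 - a).val).2
    rw [ZMod.natCast_zmod_val] at h1
    have h2 : ρ - (ρ - 1 - a) - 1 = a := by ring
    rwa [h2] at h1
  · exfalso
    have := hv (Y v) (mem_univ _)
    rw [hat] at this
    exact this rfl

end Vale.Agent.P329.H585
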